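import Mathlib

/-!
# P216, row R1: angle against chord for unit vectors

`angle_le_add_cube`: unit vectors at distance `d ≤ 1/2` have angle at most `d + d^3`
(`d = 2 sin (angle / 2)`, Jordan's inequality `Real.mul_le_sin`, `Real.sin_gt_sub_cube`).
-/

namespace Vale.Agent.H58.Geod

open InnerProductGeometry

variable {E : Type*} [NormedAddCommGroup E] [InnerProductSpace ℝ E]

theorem angle_le_add_cube (x y : E) (hx : ‖x‖ = 1) (hy : ‖y‖ = 1) (hd : ‖x - y‖ ≤ 1 / 2) :
    angle x y ≤ ‖x - y‖ + ‖x - y‖ ^ 3 := by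
  have hθ0 : 0 ≤ angle x y := angle_nonneg x y
  have hθπ : angle x y ≤ Real.pi := angle_le_pi x y
  have hd0 : 0 ≤ ‖x - y‖ := norm_nonneg _
  have hcos : Real.cos (angle x y) = inner ℝ x y := by
    rw [cos_angle, hx, hy]
    simp
  have hsq : ‖x - y‖ ^ 2 = 2 - 2 * Real.cos (angle x y) := by
    rw [hcos, norm_sub_sq_real, hx, hy]
    ring
  generalize angle x y = θ at hθ0 hθπ hsq ⊢
  generalize ‖x - y‖ = d at hd hd0 hsq ⊢
  have hhalf : Real.cos θ = 1 - 2 * Real.sin (θ / 2) ^ 2 := by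
    have h1 := Real.cos_two_mul (θ / 2)
    have e : 2 * (θ / 2) = θ := by ring
    rw [e] at h1
    have h2 := Real.sin_sq_add_cos_sq (θ / 2)
    linarith
  have hπ4 : Real.pi < 4 := Real.pi_lt_four
  have hπ0 : 0 < Real.pi := Real.pi_pos
  have hs0 : 0 ≤ Real.sin (θ / 2) :=
    Real.sin_nonneg_of_nonneg_of_le_pi (by linarith) (by linarith)
  have hds : d = 2 * Real.sin (θ / 2) := by
    have h4 : d ^ 2 = (2 * Real.sin (θ / 2)) ^ 2 := by
      rw [hsq, hhalf]
      ring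
    exact (sq_eq_sq₀ hd0 (by linarith)).mp h4
  have hj : 2 / Real.pi * (θ / 2) ≤ Real.sin (θ / 2) :=
    Real.mul_le_sin (by linarith) (by linarith)
  have hu : θ / 2 ≤ Real.pi / 4 * d := by
    have h1 : 2 / Real.pi * (θ / 2) ≤ d / 2 := by linarith
    have h2 : θ / 2 = Real.pi / 2 * (2 / Real.pi * (θ / 2)) := by
      field_simp
    have h3 : Real.pi / 2 * (2 / Real.pi * (θ / 2)) ≤ Real.pi / 2 * (d / 2) :=
      mul_le_mul_of_nonneg_left h1 (by positivity)
    linarith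
  rcases eq_or_lt_of_le hθ0 with h0 | hpos
  · rw [← h0]
    positivity
  · have hπd : Real.pi / 4 * d ≤ 1 * (1 / 2) :=
      mul_le_mul (by linarith) hd hd0 (by norm_num)
    have hc := Real.sin_gt_sub_cube (by linarith : 0 < θ / 2)
    have hcube : (θ / 2) ^ 3 ≤ (Real.pi / 4 * d) ^ 3 :=
      pow_le_pow_left₀ (by linarith) hu 3
    have hπ3 : (Real.pi / 4) ^ 3 ≤ 1 := pow_le_one₀ (by positivity) (by linarith)
    have hd3 : 0 ≤ d ^ 3 := by positivity
    have hle : (Real.pi / 4 * d) ^ 3 ≤ d ^ 3 := by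
      rw [mul_pow]
      have h5 := mul_le_mul_of_nonneg_right hπ3 hd3
      linarith
    linarith

end Vale.Agent.H58.Geod
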