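import Mathlib

/-!
# P216, row R3: great circles `cos s • u + sin s • w` (`u`, `w` orthonormal)

`circ u w s = cos s • u + sin s • w`.  For orthonormal `u`, `w`: norm one, derivative
`-sin s • u + cos s • w`, smooth, `2π`-periodic, injective on `[0, 2π)`, and
`angle (circ u w s) (circ u w s') = s' - s` for `s ≤ s' ≤ s + π` (inner product `cos (s' - s)`).
-/

namespace Vale.Agent.H58.Geod

open InnerProductGeometry

/-- The circle `s ↦ cos s • u + sin s • w`. -/
noncomputable def circ {E : Type*} [AddCommGroup E] [Module ℝ E] (u w : E) (s : ℝ) : E :=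
  Real.cos s • u + Real.sin s • w

variable {E : Type*} [NormedAddCommGroup E] [InnerProductSpace ℝ E]

theorem circ_contDiff (u w : E) : ContDiff ℝ (⊤ : ℕ∞) (circ u w) := by
  have h : circ u w = fun s : ℝ => Real.cos s • u + Real.sin s • w := rfl
  rw [h]
  exact (Real.contDiff_cos.smul contDiff_const).add (Real.contDiff_sin.smul contDiff_const)

theorem circ_deriv (u w : E) (s : ℝ) :
    deriv (circ u w) s = -Real.sin s • u + Real.cos s • w := by
  have h1 : HasDerivAt (fun s : ℝ => Real.cos s • u) ((-Real.sin s) • u) s :=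
    (Real.hasDerivAt_cos s).smul_const u
  have h2 : HasDerivAt (fun s : ℝ => Real.sin s • w) (Real.cos s • w) s :=
    (Real.hasDerivAt_sin s).smul_const w
  have h : HasDerivAt (circ u w) ((-Real.sin s) • u + Real.cos s • w) s := by
    have h0 : circ u w = fun s : ℝ => Real.cos s • u + Real.sin s • w := rfl
    rw [h0]
    exact h1.add h2
  exact h.deriv

theorem circ_periodic (u w : E) : Function.Periodic (circ u w) (2 * Real.pi) := by
  intro s
  unfold circ
  rw [Real.cos_add_two_pi, Real.sin_add_two_pi]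

theorem circA_inner (u w : E) (hu : ‖u‖ = 1) (hw : ‖w‖ = 1) (huw : inner ℝ u w = 0) (s s' : ℝ) :
    inner ℝ (circ u w s) (circ u w s') = Real.cos (s' - s) := by
  unfold circ
  have hwu : inner ℝ w u = 0 := by rw [real_inner_comm]; exact huw
  have huu : inner ℝ u u = 1 := by rw [real_inner_self_eq_norm_sq, hu]; norm_num
  have hww : inner ℝ w w = 1 := by rw [real_inner_self_eq_norm_sq, hw]; norm_num
  rw [inner_add_left, inner_add_right, inner_add_right]
  simp only [real_inner_smul_left, real_inner_smul_right, huw, hwu, huu, hww]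
  rw [Real.cos_sub]
  ring

theorem circ_norm (u w : E) (hu : ‖u‖ = 1) (hw : ‖w‖ = 1) (huw : inner ℝ u w = 0) (s : ℝ) :
    ‖circ u w s‖ = 1 := by
  have h : ‖circ u w s‖ ^ 2 = 1 := by
    rw [← real_inner_self_eq_norm_sq, circA_inner u w hu hw huw s s, sub_self, Real.cos_zero]
  have h0 : 0 ≤ ‖circ u w s‖ := norm_nonneg _
  have h3 : ‖circ u w s‖ = Real.sqrt 1 := by rw [← h, Real.sqrt_sq h0]
  rw [h3, Real.sqrt_one]

theorem circ_angle (u w : E) (hu : ‖u‖ = 1) (hw : ‖w‖ = 1) (huw : inner ℝ u w = 0) (s s' : ℝ)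
    (h1 : s ≤ s') (h2 : s' ≤ s + Real.pi) :
    angle (circ u w s) (circ u w s') = s' - s := by
  unfold InnerProductGeometry.angle
  rw [circA_inner u w hu hw huw s s', circ_norm u w hu hw huw s, circ_norm u w hu hw huw s',
    mul_one, div_one]
  exact Real.arccos_cos (by linarith) (by linarith)

theorem circ_injOn (u w : E) (hu : ‖u‖ = 1) (hw : ‖w‖ = 1) (huw : inner ℝ u w = 0) :
    Set.InjOn (circ u w) (Set.Ico 0 (2 * Real.pi)) := by
  intro s hs s' hs' heq
  have h1 : inner ℝ (circ u w s) (circ u w s') = 1 := by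
    rw [← heq, circA_inner u w hu hw huw s s, sub_self, Real.cos_zero]
  rw [circA_inner u w hu hw huw s s'] at h1
  have h2 : s' - s = 0 :=
    (Real.cos_eq_one_iff_of_lt_of_lt (by linarith [hs.1, hs.2, hs'.1, hs'.2])
      (by linarith [hs.1, hs.2, hs'.1, hs'.2])).mp h1
  linarith

end Vale.Agent.H58.Geod
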