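import Mathlib
import Vale.Agent.H58.Geod.CircA

/-!
# P216, row R4: the quaternion circles `g * (cos s + sin s * X)`

For `‖g‖ = 1` and `X` imaginary of norm one, `u = g` and `w = g * X` are orthonormal and
`star (circ g (g * X) s) * (-sin s • g + cos s • (g * X)) = X`
(`star g * g = 1`, `star X = -X`, `X * X = -1`; `Quaternion.inner_def`, `Quaternion.normSq`).
-/

namespace Vale.Agent.H58.Geod

/-- The sum of the squares of the four coordinates of a unit quaternion is one. -/
theorem circB_sq_sum (X : Quaternion ℝ) (h1 : ‖X‖ = 1) :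
    X.re ^ 2 + X.imI ^ 2 + X.imJ ^ 2 + X.imK ^ 2 = 1 := by
  rw [← Quaternion.normSq_def', Quaternion.normSq_eq_norm_mul_self, h1, mul_one]

/-- A quaternion whose coordinates have squares summing to one has norm one. -/
theorem circB_norm_one (X : Quaternion ℝ)
    (h : X.re ^ 2 + X.imI ^ 2 + X.imJ ^ 2 + X.imK ^ 2 = 1) : ‖X‖ = 1 := by
  have h2 : ‖X‖ * ‖X‖ = 1 := by
    rw [← Quaternion.normSq_eq_norm_mul_self, Quaternion.normSq_def', h]
  have h3 : 0 ≤ ‖X‖ := norm_nonneg X
  nlinarith

theorem quat_sq (X : Quaternion ℝ) (h0 : X.re = 0) (h1 : ‖X‖ = 1) : X * X = -1 := by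
  have h := circB_sq_sum X h1
  ext <;> simp [h0, Quaternion.re_one, Quaternion.imI_one, Quaternion.imJ_one,
    Quaternion.imK_one] <;> nlinarith

theorem quat_star_mul (g : Quaternion ℝ) (hg : ‖g‖ = 1) : star g * g = 1 := by
  rw [Quaternion.star_mul_self, Quaternion.normSq_eq_norm_mul_self, hg]
  simp

theorem quat_orth (g X : Quaternion ℝ) (hg : ‖g‖ = 1) (h0 : X.re = 0) (h1 : ‖X‖ = 1) :
    ‖g * X‖ = 1 ∧ inner ℝ g (g * X) = 0 := by
  refine ⟨by rw [norm_mul, hg, h1, mul_one], ?_⟩
  rw [Quaternion.inner_def]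
  simp [h0]
  ring

/-- The star of a unit imaginary quaternion is its negative. -/
theorem circB_star (X : Quaternion ℝ) (h0 : X.re = 0) : star X = -X :=
  Quaternion.star_eq_neg.mpr h0

/-- The key product: for a unit `g` and a unit imaginary `X`,
`star (a • g + b • (g * X)) * (c • g + d • (g * X)) = (a * c + b * d) • 1 + (a * d - b * c) • X`. -/
theorem circB_prod (g X : Quaternion ℝ) (hg : star g * g = 1) (h0 : X.re = 0) (h1 : ‖X‖ = 1)
    (a b c d : ℝ) :
    star (a • g + b • (g * X)) * (c • g + d • (g * X))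
      = (a * c + b * d) • (1 : Quaternion ℝ) + (a * d - b * c) • X := by
  have hX : X * X = -1 := quat_sq X h0 h1
  have hsX : star X = -X := circB_star X h0
  have e1 : star g * (g * X) = X := by rw [← mul_assoc, hg, one_mul]
  have e2 : (star X * star g) * g = -X := by rw [mul_assoc, hg, mul_one, hsX]
  have e3 : (star X * star g) * (g * X) = 1 := by
    rw [mul_assoc, e1, hsX, neg_mul, hX, neg_neg]
  have key : star (a • g + b • (g * X)) * (c • g + d • (g * X))
      = (a * c) • (star g * g) + (a * d) • (star g * (g * X))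
        + (b * c) • ((star X * star g) * g) + (b * d) • ((star X * star g) * (g * X)) := by
    rw [star_add, Quaternion.star_smul, Quaternion.star_smul, star_mul]
    simp only [add_mul, mul_add, smul_mul_assoc, mul_smul_comm]
    module
  rw [key, hg, e1, e2, e3]
  module

theorem quat_velocity (g X : Quaternion ℝ) (hg : ‖g‖ = 1) (h0 : X.re = 0) (h1 : ‖X‖ = 1)
    (s : ℝ) :
    star (circ g (g * X) s) * (-Real.sin s • g + Real.cos s • (g * X)) = X := by
  have hsg := quat_star_mul g hg
  unfold circ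
  rw [circB_prod g X hsg h0 h1]
  have h2 : Real.cos s * -Real.sin s + Real.sin s * Real.cos s = 0 := by ring
  have h3 : Real.cos s * Real.cos s - Real.sin s * -Real.sin s = 1 := by
    nlinarith [Real.sin_sq_add_cos_sq s]
  rw [h2, h3]
  simp

/-- Cosets: if `W` is imaginary of norm one and not `± X`, the circles through
`cos θ + sin θ * W` for different small `θ` are different. -/
theorem quat_coset (X W : Quaternion ℝ) (hX0 : X.re = 0) (hX1 : ‖X‖ = 1) (hW0 : W.re = 0)
    (hW1 : ‖W‖ = 1) (hne : W ≠ X) (hne' : W ≠ -X) (θ θ' s : ℝ) (h : Real.sin (θ' - θ) ≠ 0) :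
    circ (1 : Quaternion ℝ) W θ' ≠
      circ (circ (1 : Quaternion ℝ) W θ) (circ (1 : Quaternion ℝ) W θ * X) s := by
  intro hE
  have h11 : star (1 : Quaternion ℝ) * 1 = 1 := by simp
  -- `g = circ 1 W θ` is a unit quaternion
  have hgg : star (circ (1 : Quaternion ℝ) W θ) * circ (1 : Quaternion ℝ) W θ = 1 := by
    have := circB_prod 1 W h11 hW0 hW1 (Real.cos θ) (Real.sin θ) (Real.cos θ) (Real.sin θ)
    simp only [one_mul] at this
    unfold circ
    rw [this]
    have h2 : Real.cos θ * Real.cos θ + Real.sin θ * Real.sin θ = 1 := by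
      nlinarith [Real.sin_sq_add_cos_sq θ]
    have h3 : Real.cos θ * Real.sin θ - Real.sin θ * Real.cos θ = 0 := by ring
    rw [h2, h3]
    simp
  -- left side: `star g * g' = cos (θ' - θ) + sin (θ' - θ) W`
  have hL : star (circ (1 : Quaternion ℝ) W θ) * circ (1 : Quaternion ℝ) W θ'
      = Real.cos (θ' - θ) • (1 : Quaternion ℝ) + Real.sin (θ' - θ) • W := by
    have := circB_prod 1 W h11 hW0 hW1 (Real.cos θ) (Real.sin θ) (Real.cos θ') (Real.sin θ')
    simp only [one_mul] at this
    unfold circ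
    rw [this, Real.cos_sub, Real.sin_sub]
    congr 2 <;> ring
  -- right side: `star g * (cos s g + sin s g X) = cos s + sin s X`
  have hR : star (circ (1 : Quaternion ℝ) W θ) *
      circ (circ (1 : Quaternion ℝ) W θ) (circ (1 : Quaternion ℝ) W θ * X) s
      = Real.cos s • (1 : Quaternion ℝ) + Real.sin s • X := by
    have := circB_prod (circ (1 : Quaternion ℝ) W θ) X hgg hX0 hX1 1 0 (Real.cos s) (Real.sin s)
    simp only [one_smul, zero_smul, add_zero, one_mul, zero_mul, sub_zero] at this
    rw [show circ (circ (1 : Quaternion ℝ) W θ) (circ (1 : Quaternion ℝ) W θ * X) s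
        = Real.cos s • circ (1 : Quaternion ℝ) W θ
          + Real.sin s • (circ (1 : Quaternion ℝ) W θ * X) from rfl]
    exact this
  have hEq : Real.cos (θ' - θ) • (1 : Quaternion ℝ) + Real.sin (θ' - θ) • W
      = Real.cos s • (1 : Quaternion ℝ) + Real.sin s • X := by
    rw [← hL, ← hR, hE]
  set a : ℝ := Real.sin (θ' - θ) with ha
  set b : ℝ := Real.sin s with hb
  have hI : a * W.imI = b * X.imI := by
    have := congrArg (fun q : Quaternion ℝ => q.imI) hEq
    simpa [Quaternion.imI_one] using this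
  have hJ : a * W.imJ = b * X.imJ := by
    have := congrArg (fun q : Quaternion ℝ => q.imJ) hEq
    simpa [Quaternion.imJ_one] using this
  have hK : a * W.imK = b * X.imK := by
    have := congrArg (fun q : Quaternion ℝ => q.imK) hEq
    simpa [Quaternion.imK_one] using this
  have hWs := circB_sq_sum W hW1
  have hXs := circB_sq_sum X hX1
  rw [hW0] at hWs
  rw [hX0] at hXs
  have hab : a ^ 2 = b ^ 2 := by
    have e1 : a ^ 2 = (a * W.imI) ^ 2 + (a * W.imJ) ^ 2 + (a * W.imK) ^ 2 := by
      have : (a * W.imI) ^ 2 + (a * W.imJ) ^ 2 + (a * W.imK) ^ 2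
          = a ^ 2 * (0 ^ 2 + W.imI ^ 2 + W.imJ ^ 2 + W.imK ^ 2) := by ring
      rw [this, hWs, mul_one]
    have e2 : b ^ 2 = (b * X.imI) ^ 2 + (b * X.imJ) ^ 2 + (b * X.imK) ^ 2 := by
      have : (b * X.imI) ^ 2 + (b * X.imJ) ^ 2 + (b * X.imK) ^ 2
          = b ^ 2 * (0 ^ 2 + X.imI ^ 2 + X.imJ ^ 2 + X.imK ^ 2) := by ring
      rw [this, hXs, mul_one]
    rw [e1, e2, hI, hJ, hK]
  rcases sq_eq_sq_iff_eq_or_eq_neg.mp hab with hab' | hab'
  · -- `a = b`: then `W = X`
    apply hne
    rw [← hab'] at hI hJ hK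
    ext
    · rw [hW0, hX0]
    · exact mul_left_cancel₀ h hI
    · exact mul_left_cancel₀ h hJ
    · exact mul_left_cancel₀ h hK
  · -- `a = -b`: then `W = -X`
    apply hne'
    have hb' : b = -a := by rw [hab', neg_neg]
    rw [hb'] at hI hJ hK
    ext
    · simp [hW0, hX0]
    · have : a * W.imI = a * (-X.imI) := by rw [hI]; ring
      simpa using mul_left_cancel₀ h this
    · have : a * W.imJ = a * (-X.imJ) := by rw [hJ]; ring
      simpa using mul_left_cancel₀ h this
    · have : a * W.imK = a * (-X.imK) := by rw [hK]; ring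
      simpa using mul_left_cancel₀ h this

theorem quat_exists_other (X : Quaternion ℝ) (hX0 : X.re = 0) (hX1 : ‖X‖ = 1) :
    ∃ W : Quaternion ℝ, W.re = 0 ∧ ‖W‖ = 1 ∧ W ≠ X ∧ W ≠ -X := by
  have _h0 := hX0
  have _h1 := hX1
  by_cases hc : X.imJ = 0
  · -- `X` has no `j` component: take `W = j`
    refine ⟨⟨0, 0, 1, 0⟩, rfl, circB_norm_one _ (by norm_num), ?_, ?_⟩
    · intro hW
      have := congrArg (fun q : Quaternion ℝ => q.imJ) hW
      simp [hc] at this
    · intro hW
      have := congrArg (fun q : Quaternion ℝ => q.imJ) hW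
      simp [hc] at this
  · -- `X` has a `j` component: take `W = i`
    refine ⟨⟨0, 1, 0, 0⟩, rfl, circB_norm_one _ (by norm_num), ?_, ?_⟩
    · intro hW
      have := congrArg (fun q : Quaternion ℝ => q.imJ) hW
      exact hc (by simpa using this.symm)
    · intro hW
      have := congrArg (fun q : Quaternion ℝ => q.imJ) hW
      apply hc
      have h2 : (0 : ℝ) = -X.imJ := by simpa using this
      linarith

end Vale.Agent.H58.Geod
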