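import Mathlib

/-!
# P216: a family of Riemannian metrics on the three-sphere, statement-level definitions

The three-sphere is the group of unit quaternions; its tangent space at `q` is `q * ξ` with `ξ`
an imaginary quaternion.  A Riemannian metric is given by a field `Q` of quadratic forms, through
`g_q (q * ξ) = Q q ξ` (`ξ` imaginary).  For a curve `γ` on the sphere the quaternion
`star (γ t) * deriv γ t` is the imaginary quaternion `γ(t)⁻¹ γ'(t)`, so the speed of `γ` at time `t`
is `Real.sqrt (Q (γ t) (star (γ t) * deriv γ t))`.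
-/

namespace Vale.Agent.H58.Geod

/-- Length of the curve `γ` on `[a, b]` for the metric `g_q (q * ξ) = Q q ξ` on the unit
quaternions. -/
noncomputable def len (Q : Quaternion ℝ → QuadraticForm ℝ (Quaternion ℝ)) (γ : ℝ → Quaternion ℝ)
    (a b : ℝ) : ℝ :=
  ∫ t in a..b, Real.sqrt (Q (γ t) (star (γ t) * deriv γ t))

/-- `c` is a geodesic of the metric given by `Q`, in the metric characterisation: `c` is a smooth
curve on the unit sphere of the quaternions, it has constant speed `v > 0` (its length on `[s, s']`
is `v * (s' - s)`), and it is locally length-minimising: there is `δ > 0` such that on every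
parameter interval `[s, s']` of length at most `δ` the curve `c` is not longer than any `C^1` curve
`γ` on the sphere (defined on any `[a, b]`) with the same end points. -/
def IsGeod (Q : Quaternion ℝ → QuadraticForm ℝ (Quaternion ℝ)) (c : ℝ → Quaternion ℝ) : Prop :=
  ContDiff ℝ (⊤ : ℕ∞) c ∧ (∀ t, ‖c t‖ = 1) ∧
    (∃ v : ℝ, 0 < v ∧ ∀ s s' : ℝ, s ≤ s' → len Q c s s' = v * (s' - s)) ∧
    ∃ δ : ℝ, 0 < δ ∧ ∀ s s' : ℝ, s ≤ s' → s' ≤ s + δ →
      ∀ (γ : ℝ → Quaternion ℝ) (a b : ℝ), a ≤ b → ContDiff ℝ 1 γ →
        (∀ t ∈ Set.Icc a b, ‖γ t‖ = 1) → γ a = c s → γ b = c s' →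
          len Q c s s' ≤ len Q γ a b

end Vale.Agent.H58.Geod
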