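import Mathlib
import Vale.Agent.H58.Geod.Chord

/-!
# P216, row R2: on the unit sphere of a real inner product space, length is at least the angle

`angle_le_integral`: put `φ t = angle (γ a) (γ t)`; by the triangle inequality for angles
(`InnerProductGeometry.angle_le_angle_add_angle`) the slope of `φ` between `x < z` is at
most `angle (γ x) (γ z) / (z - x)`, which is at most `(d + d ^ 3) / (z - x)` with
`d = ‖γ z - γ x‖` by `angle_le_add_cube`, and this tends to `‖deriv γ x‖` as `z` decreases to `x`;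
conclude with `image_le_of_liminf_slope_right_le_deriv_boundary` for
`B t = ∫ u in a..t, ‖deriv γ u‖`, whose right derivative at `x` is `‖deriv γ x‖`.
-/

namespace Vale.Agent.H58.Geod

open InnerProductGeometry

variable {E : Type*} [NormedAddCommGroup E] [InnerProductSpace ℝ E]

theorem angle_le_integral (γ : ℝ → E) (a b : ℝ) (hab : a ≤ b) (hγ : ContDiff ℝ 1 γ)
    (h1 : ∀ t ∈ Set.Icc a b, ‖γ t‖ = 1) :
    angle (γ a) (γ b) ≤ ∫ t in a..b, ‖deriv γ t‖ := by
  have hγc : Continuous γ := hγ.continuous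
  have hg : Continuous (fun t => ‖deriv γ t‖) := (hγ.continuous_deriv le_rfl).norm
  have hγd : ∀ x, HasDerivAt γ (deriv γ x) x :=
    fun x => ((hγ.differentiable one_ne_zero) x).hasDerivAt
  have hne : ∀ t ∈ Set.Icc a b, γ t ≠ 0 := by
    intro t ht h0
    have h := h1 t ht
    rw [h0, norm_zero] at h
    exact zero_ne_one h
  have haI : a ∈ Set.Icc a b := Set.left_mem_Icc.2 hab
  have hf : ContinuousOn (fun t => angle (γ a) (γ t)) (Set.Icc a b) := by
    intro t ht
    apply ContinuousAt.continuousWithinAt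
    have hc : ContinuousAt (fun y : E × E => angle y.1 y.2) (γ a, γ t) :=
      continuousAt_angle (hne a haI) (hne t ht)
    exact ContinuousAt.comp (f := fun t => (γ a, γ t)) hc
      (continuousAt_const.prodMk hγc.continuousAt)
  have hBd : ∀ x, HasDerivAt (fun t => ∫ u in a..t, ‖deriv γ u‖) ‖deriv γ x‖ x := by
    intro x
    exact intervalIntegral.integral_hasDerivAt_right (hg.intervalIntegrable a x)
      (hg.stronglyMeasurableAtFilter MeasureTheory.volume (nhds x)) hg.continuousAt
  have hB : ContinuousOn (fun t => ∫ u in a..t, ‖deriv γ u‖) (Set.Icc a b) :=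
    fun x _ => (hBd x).continuousAt.continuousWithinAt
  have hmain := image_le_of_liminf_slope_right_le_deriv_boundary
    (f := fun t => angle (γ a) (γ t)) (B := fun t => ∫ u in a..t, ‖deriv γ u‖)
    (B' := fun x => ‖deriv γ x‖) hf
    (by
      show angle (γ a) (γ a) ≤ ∫ u in a..a, ‖deriv γ u‖
      rw [angle_self (hne a haI), intervalIntegral.integral_same])
    hB (fun x _ => (hBd x).hasDerivWithinAt)
    (by
      intro x hx r hr
      have hr' : ‖deriv γ x‖ < r := hr
      have hxI : x ∈ Set.Icc a b := ⟨hx.1, hx.2.le⟩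
      apply Filter.Eventually.frequently
      have hslope : Filter.Tendsto (slope γ x) (nhdsWithin x (Set.Ioi x))
          (nhds (deriv γ x)) :=
        ((hγd x).tendsto_slope).mono_left (nhdsGT_le_nhdsNE x)
      have hdist : Filter.Tendsto (fun z => ‖γ z - γ x‖) (nhdsWithin x (Set.Ioi x))
          (nhds 0) := by
        have h : Filter.Tendsto (fun z => ‖γ z - γ x‖) (nhds x) (nhds ‖γ x - γ x‖) :=
          ((hγc.sub continuous_const).norm).tendsto x
        rw [sub_self, norm_zero] at h
        exact h.mono_left nhdsWithin_le_nhds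
      have hG : Filter.Tendsto (fun z => ‖slope γ x z‖ * (1 + ‖γ z - γ x‖ ^ 2))
          (nhdsWithin x (Set.Ioi x)) (nhds (‖deriv γ x‖ * (1 + 0 ^ 2))) :=
        hslope.norm.mul (tendsto_const_nhds.add (hdist.pow 2))
      have e0 : ‖deriv γ x‖ * (1 + 0 ^ 2) = ‖deriv γ x‖ := by ring
      rw [e0] at hG
      have hG' : ∀ᶠ z in nhdsWithin x (Set.Ioi x),
          ‖slope γ x z‖ * (1 + ‖γ z - γ x‖ ^ 2) < r := hG.eventually_lt_const hr'
      have hsmall : ∀ᶠ z in nhdsWithin x (Set.Ioi x), ‖γ z - γ x‖ < 1 / 2 :=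
        hdist.eventually_lt_const (by norm_num)
      have hIoo : ∀ᶠ z in nhdsWithin x (Set.Ioi x), z ∈ Set.Ioo x b := Ioo_mem_nhdsGT hx.2
      filter_upwards [hG', hsmall, hIoo] with z hz1 hz2 hz3
      refine lt_of_le_of_lt ?_ hz1
      have hzx : 0 < z - x := sub_pos.2 hz3.1
      have hzI : z ∈ Set.Icc a b := ⟨hx.1.trans hz3.1.le, hz3.2.le⟩
      have htri : angle (γ a) (γ z) ≤ angle (γ a) (γ x) + angle (γ x) (γ z) :=
        angle_le_angle_add_angle _ _ _
      have hd : ‖γ x - γ z‖ = ‖γ z - γ x‖ := norm_sub_rev _ _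
      have hcube : angle (γ x) (γ z) ≤ ‖γ z - γ x‖ + ‖γ z - γ x‖ ^ 3 := by
        have h := angle_le_add_cube (γ x) (γ z) (h1 x hxI) (h1 z hzI)
          (by rw [hd]; exact hz2.le)
        rwa [hd] at h
      have hns : ‖slope γ x z‖ = ‖γ z - γ x‖ / (z - x) := by
        rw [slope_def_module, norm_smul, norm_inv, Real.norm_eq_abs, abs_of_pos hzx,
          inv_mul_eq_div]
      have hsl : slope (fun t => angle (γ a) (γ t)) x z =
          (angle (γ a) (γ z) - angle (γ a) (γ x)) / (z - x) := slope_def_field _ _ _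
      rw [hsl, hns, div_mul_eq_mul_div, div_le_div_iff_of_pos_right hzx]
      have e1 : ‖γ z - γ x‖ * (1 + ‖γ z - γ x‖ ^ 2) = ‖γ z - γ x‖ + ‖γ z - γ x‖ ^ 3 := by ring
      rw [e1]
      linarith)
  exact hmain (Set.right_mem_Icc.2 hab)

end Vale.Agent.H58.Geod
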