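import Mathlib
import Vale.Agent.H58.Geod.Defs
import Vale.Agent.H58.Geod.Round
import Vale.Agent.H58.Geod.CircB

/-!
# P216: assembly.  Hopf circles are closed geodesics for metrics with a shortest Hopf field

Let `Q` be a smooth field of quadratic forms (a metric on the unit quaternions through
`g_q (q * ξ) = Q q ξ`), with `Q q ξ ≥ lam * ‖ξ‖ ^ 2` for imaginary `ξ` and `Q q X = lam` for one
imaginary unit `X`.  Then every circle `s ↦ g * (cos s + sin s * X)` (`‖g‖ = 1`) has constant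
speed `√lam` and is length-minimising on parameter intervals of length at most `π`:
a competitor `γ` has length at least `√lam` times its round length, which is at least the angle
between its end points (`angle_le_integral`), and that angle is `s' - s` (`circ_angle`).
-/

namespace Vale.Agent.H58.Geod

open InnerProductGeometry

/-- The speed of a `C^1` curve is continuous. -/
theorem speed_continuous (Q : Quaternion ℝ → QuadraticForm ℝ (Quaternion ℝ))
    (hsm : ContDiff ℝ (⊤ : ℕ∞) (fun p : Quaternion ℝ × Quaternion ℝ => Q p.1 p.2))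
    (γ : ℝ → Quaternion ℝ) (hγ : ContDiff ℝ 1 γ) :
    Continuous fun t => Real.sqrt (Q (γ t) (star (γ t) * deriv γ t)) := by
  have h1 : Continuous γ := hγ.continuous
  have h2 : Continuous (deriv γ) := hγ.continuous_deriv le_rfl
  have h3 : Continuous fun t => (γ t, star (γ t) * deriv γ t) :=
    h1.prodMk ((continuous_star.comp h1).mul h2)
  exact Real.continuous_sqrt.comp (hsm.continuous.comp h3)

/-- Real part of `star a * b` is the inner product. -/
theorem re_star_mul (a b : Quaternion ℝ) : (star a * b).re = inner ℝ a b := by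
  rw [Quaternion.inner_def]
  simp [Quaternion.re_mul]

/-- Pointwise: the speed of a curve on the sphere is at least `√lam` times its round speed. -/
theorem speed_ge (Q : Quaternion ℝ → QuadraticForm ℝ (Quaternion ℝ)) (lam : ℝ) (hlam : 0 < lam)
    (hmin : ∀ q ξ : Quaternion ℝ, ‖q‖ = 1 → ξ.re = 0 → lam * ‖ξ‖ ^ 2 ≤ Q q ξ)
    (γ : ℝ → Quaternion ℝ) (a b : ℝ) (hγ : ContDiff ℝ 1 γ)
    (h1 : ∀ t ∈ Set.Icc a b, ‖γ t‖ = 1) (t : ℝ) (ht : t ∈ Set.Ioo a b) :
    Real.sqrt lam * ‖deriv γ t‖ ≤ Real.sqrt (Q (γ t) (star (γ t) * deriv γ t)) := by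
  have hn : ‖γ t‖ = 1 := h1 t ⟨ht.1.le, ht.2.le⟩
  have hd : HasDerivAt γ (deriv γ t) t := (hγ.differentiable one_ne_zero t).hasDerivAt
  have hinner : inner ℝ (γ t) (deriv γ t) = 0 := by
    have h2 : HasDerivAt (fun s => inner ℝ (γ s) (γ s))
        (inner ℝ (γ t) (deriv γ t) + inner ℝ (deriv γ t) (γ t)) t := hd.inner ℝ hd
    have h3 : (fun s => inner ℝ (γ s) (γ s)) =ᶠ[nhds t] fun _ => (1 : ℝ) := by
      filter_upwards [Ioo_mem_nhds ht.1 ht.2] with s hs
      rw [real_inner_self_eq_norm_sq, h1 s ⟨hs.1.le, hs.2.le⟩]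
      norm_num
    have h4 : HasDerivAt (fun _ : ℝ => (1 : ℝ))
        (inner ℝ (γ t) (deriv γ t) + inner ℝ (deriv γ t) (γ t)) t :=
      h2.congr_of_eventuallyEq h3.symm
    have h5 := h4.unique (hasDerivAt_const t (1 : ℝ))
    rw [real_inner_comm (γ t) (deriv γ t)] at h5
    linarith
  have hre : (star (γ t) * deriv γ t).re = 0 := by
    rw [re_star_mul, hinner]
  have hnorm : ‖star (γ t) * deriv γ t‖ = ‖deriv γ t‖ := by
    rw [norm_mul, norm_star, hn, one_mul]
  have h6 := hmin (γ t) _ hn hre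
  rw [hnorm] at h6
  calc Real.sqrt lam * ‖deriv γ t‖ = Real.sqrt (lam * ‖deriv γ t‖ ^ 2) := by
        rw [Real.sqrt_mul hlam.le, Real.sqrt_sq (norm_nonneg _)]
    _ ≤ _ := Real.sqrt_le_sqrt h6

/-- Every Hopf circle `s ↦ g * (cos s + sin s * X)` is a geodesic in the sense of `IsGeod`. -/
theorem isGeod_circ (Q : Quaternion ℝ → QuadraticForm ℝ (Quaternion ℝ))
    (hsm : ContDiff ℝ (⊤ : ℕ∞) (fun p : Quaternion ℝ × Quaternion ℝ => Q p.1 p.2))
    (X : Quaternion ℝ) (hX0 : X.re = 0) (hX1 : ‖X‖ = 1) (lam : ℝ) (hlam : 0 < lam)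
    (hmin : ∀ q ξ : Quaternion ℝ, ‖q‖ = 1 → ξ.re = 0 → lam * ‖ξ‖ ^ 2 ≤ Q q ξ)
    (heq : ∀ q : Quaternion ℝ, ‖q‖ = 1 → Q q X = lam) (g : Quaternion ℝ) (hg : ‖g‖ = 1) :
    IsGeod Q (circ g (g * X)) := by
  obtain ⟨hgX, horth⟩ := quat_orth g X hg hX0 hX1
  have hnorm : ∀ t, ‖circ g (g * X) t‖ = 1 := circ_norm g (g * X) hg hgX horth
  have hlen : ∀ s s' : ℝ, s ≤ s' → len Q (circ g (g * X)) s s' = Real.sqrt lam * (s' - s) := by
    intro s s' _
    unfold len
    have hconst : ∀ t, Real.sqrt (Q (circ g (g * X) t)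
        (star (circ g (g * X) t) * deriv (circ g (g * X)) t)) = Real.sqrt lam := by
      intro t
      rw [circ_deriv, quat_velocity g X hg hX0 hX1 t, heq _ (hnorm t)]
    simp_rw [hconst]
    rw [intervalIntegral.integral_const, smul_eq_mul]
    ring
  refine ⟨circ_contDiff _ _, hnorm, ⟨Real.sqrt lam, Real.sqrt_pos.mpr hlam, hlen⟩,
    Real.pi, Real.pi_pos, ?_⟩
  intro s s' hss hss' γ a b hab hγ h1 ha hb
  have hang : angle (γ a) (γ b) = s' - s := by
    rw [ha, hb]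
    exact circ_angle g (g * X) hg hgX horth s s' hss hss'
  have hL := angle_le_integral γ a b hab hγ h1
  have hcont1 : Continuous fun t => Real.sqrt lam * ‖deriv γ t‖ :=
    continuous_const.mul (hγ.continuous_deriv le_rfl).norm
  have hcont2 := speed_continuous Q hsm γ hγ
  have hmono : ∫ t in a..b, Real.sqrt lam * ‖deriv γ t‖ ≤ len Q γ a b := by
    unfold len
    exact intervalIntegral.integral_mono_on_of_le_Ioo hab (hcont1.intervalIntegrable _ _)
      (hcont2.intervalIntegrable _ _)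
      (fun t ht => speed_ge Q lam hlam hmin γ a b hγ h1 t ht)
  calc len Q (circ g (g * X)) s s' = Real.sqrt lam * (s' - s) := hlen s s' hss
    _ = Real.sqrt lam * angle (γ a) (γ b) := by rw [hang]
    _ ≤ Real.sqrt lam * ∫ t in a..b, ‖deriv γ t‖ :=
        mul_le_mul_of_nonneg_left hL (Real.sqrt_nonneg _)
    _ = ∫ t in a..b, Real.sqrt lam * ‖deriv γ t‖ :=
        (intervalIntegral.integral_const_mul _ _).symm
    _ ≤ len Q γ a b := hmono

/-- Main theorem: infinitely many simple closed geodesics with pairwise different images. -/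
theorem hopf_family (Q : Quaternion ℝ → QuadraticForm ℝ (Quaternion ℝ))
    (hsm : ContDiff ℝ (⊤ : ℕ∞) (fun p : Quaternion ℝ × Quaternion ℝ => Q p.1 p.2))
    (X : Quaternion ℝ) (hX0 : X.re = 0) (hX1 : ‖X‖ = 1) (lam : ℝ) (hlam : 0 < lam)
    (hmin : ∀ q ξ : Quaternion ℝ, ‖q‖ = 1 → ξ.re = 0 → lam * ‖ξ‖ ^ 2 ≤ Q q ξ)
    (heq : ∀ q : Quaternion ℝ, ‖q‖ = 1 → Q q X = lam) :
    ∃ c : ℕ → ℝ → Quaternion ℝ, (∀ k, IsGeod Q (c k)) ∧
      (∀ k, Function.Periodic (c k) (2 * Real.pi)) ∧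
      (∀ k, Set.InjOn (c k) (Set.Ico 0 (2 * Real.pi))) ∧
      ∀ k l, k ≠ l → Set.range (c k) ≠ Set.range (c l) := by
  obtain ⟨W, hW0, hW1, hWX, hWX'⟩ := quat_exists_other X hX0 hX1
  have h1W : inner ℝ (1 : Quaternion ℝ) W = 0 := by
    rw [← re_star_mul]
    simp [hW0]
  have hg : ∀ θ : ℝ, ‖circ (1 : Quaternion ℝ) W θ‖ = 1 :=
    fun θ => circ_norm 1 W (by simp) hW1 h1W θ
  refine ⟨fun k => circ (circ 1 W (1 / ((k : ℝ) + 1))) (circ 1 W (1 / ((k : ℝ) + 1)) * X),
    ?_, ?_, ?_, ?_⟩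
  · intro k
    exact isGeod_circ Q hsm X hX0 hX1 lam hlam hmin heq _ (hg _)
  · intro k
    exact circ_periodic _ _
  · intro k
    obtain ⟨h1, h2⟩ := quat_orth _ X (hg (1 / ((k : ℝ) + 1))) hX0 hX1
    exact circ_injOn _ _ (hg _) h1 h2
  · intro k l hkl hEq
    have h0 : circ (1 : Quaternion ℝ) W (1 / ((k : ℝ) + 1)) ∈
        Set.range (circ (circ 1 W (1 / ((k : ℝ) + 1))) (circ 1 W (1 / ((k : ℝ) + 1)) * X)) :=
      ⟨0, by simp [circ]⟩
    have hEq' : Set.range (circ (circ 1 W (1 / ((k : ℝ) + 1))) (circ 1 W (1 / ((k : ℝ) + 1)) * X))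
        = Set.range (circ (circ 1 W (1 / ((l : ℝ) + 1))) (circ 1 W (1 / ((l : ℝ) + 1)) * X)) :=
      hEq
    rw [hEq'] at h0
    obtain ⟨s, hs⟩ := h0
    refine quat_coset X W hX0 hX1 hW0 hW1 hWX hWX' (1 / ((l : ℝ) + 1)) (1 / ((k : ℝ) + 1)) s ?_
      hs.symm
    have hk0 : (0 : ℝ) < (k : ℝ) + 1 := by positivity
    have hl0 : (0 : ℝ) < (l : ℝ) + 1 := by positivity
    have hk1 : 1 / ((k : ℝ) + 1) ≤ 1 := by
      rw [div_le_one hk0]
      linarith [(Nat.cast_nonneg k : (0 : ℝ) ≤ k)]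
    have hl1 : 1 / ((l : ℝ) + 1) ≤ 1 := by
      rw [div_le_one hl0]
      linarith [(Nat.cast_nonneg l : (0 : ℝ) ≤ l)]
    have hkp : 0 < 1 / ((k : ℝ) + 1) := by positivity
    have hlp : 0 < 1 / ((l : ℝ) + 1) := by positivity
    have hpi : (3 : ℝ) < Real.pi := Real.pi_gt_three
    intro hsin
    rw [Real.sin_eq_zero_iff_of_lt_of_lt (by linarith) (by linarith)] at hsin
    have h2 : 1 / ((k : ℝ) + 1) = 1 / ((l : ℝ) + 1) := by linarith
    rw [div_eq_div_iff hk0.ne' hl0.ne'] at h2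
    have h3 : (k : ℝ) = l := by linarith
    exact hkl (by exact_mod_cast h3)

end Vale.Agent.H58.Geod
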