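import Mathlib

/-!
# P216, row R5: the smallest principal axis of a quadratic form on the imaginary quaternions

`Q` restricted to the unit sphere of the imaginary quaternions (compact, nonempty) attains its
minimum `lam > 0` at some `X`; by homogeneity `lam * ‖ξ‖ ^ 2 ≤ Q ξ` for all imaginary `ξ`.
A quadratic form on a finite-dimensional space is smooth: `Q ξ = B ξ ξ` for the associated
bilinear form (`QuadraticMap.associated`), and bilinear maps on finite-dimensional spaces are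
smooth (`LinearMap.toContinuousLinearMap`, `ContinuousLinearMap.contDiff`, or expand in the basis
`Quaternion.basisOneIJK` to get a polynomial in the four coordinates).
-/

namespace Vale.Agent.H58.Geod

theorem quadraticForm_contDiff (Q : QuadraticForm ℝ (Quaternion ℝ)) :
    ContDiff ℝ (⊤ : ℕ∞) fun ξ : Quaternion ℝ => Q ξ := by
  let B : Quaternion ℝ →ₗ[ℝ] Quaternion ℝ →ₗ[ℝ] ℝ := QuadraticMap.associated (R := ℝ) Q
  let B' : Quaternion ℝ →ₗ[ℝ] (Quaternion ℝ →L[ℝ] ℝ) :=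
    (LinearMap.toContinuousLinearMap (𝕜 := ℝ) (E := Quaternion ℝ) (F' := ℝ)).toLinearMap ∘ₗ B
  let B'' : Quaternion ℝ →L[ℝ] (Quaternion ℝ →L[ℝ] ℝ) := LinearMap.toContinuousLinearMap B'
  have h : (fun ξ : Quaternion ℝ => Q ξ) = fun ξ => B'' ξ ξ := by
    funext ξ
    have e : B'' ξ ξ = QuadraticMap.associated (R := ℝ) Q ξ ξ := rfl
    rw [e]
    exact (QuadraticMap.associated_eq_self_apply ℝ Q ξ).symm
  rw [h]
  exact B''.contDiff.clm_apply contDiff_id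

theorem exists_min_axis (Q : QuadraticForm ℝ (Quaternion ℝ))
    (hQ : ∀ ξ : Quaternion ℝ, ξ.re = 0 → ξ ≠ 0 → 0 < Q ξ) :
    ∃ (X : Quaternion ℝ) (lam : ℝ), 0 < lam ∧ X.re = 0 ∧ ‖X‖ = 1 ∧ Q X = lam ∧
      ∀ ξ : Quaternion ℝ, ξ.re = 0 → lam * ‖ξ‖ ^ 2 ≤ Q ξ := by
  have hcont : Continuous fun ξ : Quaternion ℝ => Q ξ := (quadraticForm_contDiff Q).continuous
  have hcompact : IsCompact (Metric.sphere (0 : Quaternion ℝ) 1 ∩ {ξ : Quaternion ℝ | ξ.re = 0}) :=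
    (isCompact_sphere 0 1).inter_right (isClosed_eq Quaternion.continuous_re continuous_const)
  have hne : (Metric.sphere (0 : Quaternion ℝ) 1 ∩ {ξ : Quaternion ℝ | ξ.re = 0}).Nonempty := by
    obtain ⟨q, hq1, hq2, hq3, hq4⟩ :
        ∃ q : Quaternion ℝ, q.re = 0 ∧ q.imI = 1 ∧ q.imJ = 0 ∧ q.imK = 0 :=
      ⟨⟨0, 1, 0, 0⟩, rfl, rfl, rfl, rfl⟩
    have hq : ‖q‖ = 1 := by
      have h1 : ‖q‖ * ‖q‖ = 1 := by
        rw [← Quaternion.normSq_eq_norm_mul_self, Quaternion.normSq_def', hq1, hq2, hq3, hq4]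
        norm_num
      have h2 : 0 ≤ ‖q‖ := norm_nonneg _
      nlinarith
    exact ⟨q, by simpa using hq, hq1⟩
  obtain ⟨X, hX, hmin⟩ := hcompact.exists_isMinOn hne hcont.continuousOn
  have hXn : ‖X‖ = 1 := by simpa using hX.1
  have hXre : X.re = 0 := hX.2
  have hX0 : X ≠ 0 := by
    intro h0
    rw [h0, norm_zero] at hXn
    exact zero_ne_one hXn
  refine ⟨X, Q X, hQ X hXre hX0, hXre, hXn, rfl, ?_⟩
  intro ξ hξ
  by_cases h0 : ξ = 0
  · subst h0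
    simp
  · have hn : 0 < ‖ξ‖ := norm_pos_iff.mpr h0
    have hmem : (‖ξ‖⁻¹ • ξ) ∈ Metric.sphere (0 : Quaternion ℝ) 1 ∩ {ξ : Quaternion ℝ | ξ.re = 0} := by
      refine ⟨?_, ?_⟩
      · rw [mem_sphere_zero_iff_norm, norm_smul, norm_inv, norm_norm]
        exact inv_mul_cancel₀ hn.ne'
      · show (‖ξ‖⁻¹ • ξ).re = 0
        simp [hξ]
    have h1 : Q X ≤ Q (‖ξ‖⁻¹ • ξ) := hmin hmem
    rw [QuadraticMap.map_smul] at h1
    have h2 : Q X * ‖ξ‖ ^ 2 ≤ (‖ξ‖⁻¹ * ‖ξ‖⁻¹) • Q ξ * ‖ξ‖ ^ 2 :=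
      mul_le_mul_of_nonneg_right h1 (by positivity)
    have h3 : (‖ξ‖⁻¹ * ‖ξ‖⁻¹) • Q ξ * ‖ξ‖ ^ 2 = Q ξ := by
      rw [smul_eq_mul]
      field_simp
    rw [h3] at h2
    exact h2

end Vale.Agent.H58.Geod
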