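import Mathlib
import Vale.Agent.H58.Geod.Main
import Vale.Agent.H58.Geod.QMin

/-!
# P216: corollary for left-invariant metrics on the three-sphere

A quadratic form `Q` on the quaternions that is positive on the non-zero imaginary quaternions
gives the left-invariant metric `g_q (q * ξ) = Q ξ`, that is the constant field `fun _ => Q`.
Its minimum `lam` on the unit sphere of the imaginary quaternions is attained at some `X`
(`exists_min_axis`), so `hopf_family` applies.
-/

namespace Vale.Agent.H58.Geod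

theorem left_invariant (Q : QuadraticForm ℝ (Quaternion ℝ))
    (hQ : ∀ ξ : Quaternion ℝ, ξ.re = 0 → ξ ≠ 0 → 0 < Q ξ) :
    ∃ c : ℕ → ℝ → Quaternion ℝ, (∀ k, IsGeod (fun _ => Q) (c k)) ∧
      (∀ k, Function.Periodic (c k) (2 * Real.pi)) ∧
      (∀ k, Set.InjOn (c k) (Set.Ico 0 (2 * Real.pi))) ∧
      ∀ k l, k ≠ l → Set.range (c k) ≠ Set.range (c l) := by
  obtain ⟨X, lam, hlam, hX0, hX1, hQX, hmin⟩ := exists_min_axis Q hQ
  refine hopf_family (fun _ => Q) ?_ X hX0 hX1 lam hlam (fun q ξ _ hξ => hmin ξ hξ)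
    (fun q _ => hQX)
  exact (quadraticForm_contDiff Q).comp contDiff_snd

end Vale.Agent.H58.Geod
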